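import Vale.Agent.Lib.P007.Final

open Filter Vale.Agent.Lib.P007

namespace Vale.Agent.Results.P007.A_composite

/-- First part: for every composite `n`, the convergence asked for in the problem fails for a
sequence of orders `O_t` of a totally real field `K` of degree `n`, with `|Disc O_t| → ∞`; all these
orders contain the ring of integers of an intermediate field `F ≠ ℚ, K`.
Second part: more generally, the convergence fails for every sequence of totally real fields of
degree `n` with orders `O_i` such that, for infinitely many `i`, the order `O_i` contains an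
irrational element all of whose conjugates are at most `C` in absolute value (`C` fixed). -/
theorem result :
    (∀ n : ℕ, 1 < n → ¬ n.Prime →
      ∃ (K : Type) (_ : Field K) (_ : NumberField K) (_ : NumberField.IsTotallyReal K)
        (σ : Fin n ≃ (K →+* ℝ)) (F : IntermediateField ℚ K) (O : ℕ → Subring K),
        Module.finrank ℚ K = n ∧ F ≠ ⊥ ∧ F ≠ ⊤ ∧ (∀ t, IsOrder (O t)) ∧
        (∀ t, ∀ x ∈ F, IsIntegral ℤ x → x ∈ O t) ∧
        Tendsto (fun t => orderDisc (O t)) atTop atTop ∧
        (∀ t, (packetOrbits σ (O t)).Nonempty) ∧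
        NoEquidistribution fun t => packetOrbits σ (O t)) ∧
    (∀ (n : ℕ) (K : ℕ → Type) [∀ i, Field (K i)] [∀ i, NumberField (K i)]
      [∀ i, NumberField.IsTotallyReal (K i)], (∀ i, Module.finrank ℚ (K i) = n) →
      ∀ (σ : ∀ i, Fin n ≃ (K i →+* ℝ)) (O : ∀ i, Subring (K i)), (∀ i, IsOrder (O i)) →
      ∀ C : ℝ, (∃ᶠ i in atTop, ∃ α ∈ O i, α ∉ Set.range (algebraMap ℚ (K i)) ∧ ∀ j, |σ i j α| ≤ C) →
        NoEquidistribution fun i => packetOrbits (σ i) (O i)) :=
  ⟨composite_main, fun _ K _ _ _ hdeg σ O hO C hbdd =>
    noEquidistribution_of_bounded_element K hdeg σ O hO C hbdd⟩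

end Vale.Agent.Results.P007.A_composite
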