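import Vale.Agent.Lib.P007.FinalMax

open Filter Polynomial Vale.Agent.Lib.P007

namespace Vale.Agent.Results.P007.A_maximal

/-- First part: for every composite `n` the convergence asked for in the problem fails for a
sequence of maximal orders: there are totally real fields `K t` of degree `n` with
`|Disc K t| → ∞`, all containing a root of one fixed irreducible monic integer polynomial `p` of
degree strictly between `1` and `n`.
Second part: for every composite `n` it also fails for a sequence of orders `O_t` of one totally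
real field `K` of degree `n`, with `|Disc O_t| → ∞`; all these orders contain the ring of integers
of an intermediate field `F ≠ ℚ, K`.
Third part: in every degree it fails for every sequence of totally real fields with orders `O_i`
such that, for infinitely many `i`, the order `O_i` contains an irrational element all of whose
conjugates are at most `C` in absolute value (`C` fixed). -/
theorem result :
    (∀ n : ℕ, 1 < n → ¬ n.Prime →
      ∃ (K : ℕ → Type) (_ : ∀ t, Field (K t)) (_ : ∀ t, NumberField (K t))
        (_ : ∀ t, NumberField.IsTotallyReal (K t)) (σ : ∀ t, Fin n ≃ (K t →+* ℝ)) (p : ℤ[X]),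
        (∀ t, Module.finrank ℚ (K t) = n) ∧ p.Monic ∧ Irreducible (p.map (Int.castRingHom ℚ)) ∧
        1 < p.natDegree ∧ p.natDegree < n ∧ (∀ t, ∃ β : K t, aeval β p = 0) ∧
        Tendsto (fun t => |NumberField.discr (K t)|) atTop atTop ∧
        (∀ t, (packetOrbits (σ t) (maximalOrder (K t))).Nonempty) ∧
        NoEquidistribution fun t => packetOrbits (σ t) (maximalOrder (K t))) ∧
    (∀ n : ℕ, 1 < n → ¬ n.Prime →
      ∃ (K : Type) (_ : Field K) (_ : NumberField K) (_ : NumberField.IsTotallyReal K)
        (σ : Fin n ≃ (K →+* ℝ)) (F : IntermediateField ℚ K) (O : ℕ → Subring K),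
        Module.finrank ℚ K = n ∧ F ≠ ⊥ ∧ F ≠ ⊤ ∧ (∀ t, IsOrder (O t)) ∧
        (∀ t, ∀ x ∈ F, IsIntegral ℤ x → x ∈ O t) ∧
        Tendsto (fun t => orderDisc (O t)) atTop atTop ∧
        (∀ t, (packetOrbits σ (O t)).Nonempty) ∧
        NoEquidistribution fun t => packetOrbits σ (O t)) ∧
    (∀ (n : ℕ) (K : ℕ → Type) [∀ i, Field (K i)] [∀ i, NumberField (K i)]
      [∀ i, NumberField.IsTotallyReal (K i)], (∀ i, Module.finrank ℚ (K i) = n) →
      ∀ (σ : ∀ i, Fin n ≃ (K i →+* ℝ)) (O : ∀ i, Subring (K i)), (∀ i, IsOrder (O i)) →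
      ∀ C : ℝ, (∃ᶠ i in atTop, ∃ α ∈ O i, α ∉ Set.range (algebraMap ℚ (K i)) ∧ ∀ j, |σ i j α| ≤ C) →
        NoEquidistribution fun i => packetOrbits (σ i) (O i)) :=
  ⟨composite_maximal, composite_main, fun _ K _ _ _ hdeg σ O hO C hbdd =>
    noEquidistribution_of_bounded_element K hdeg σ O hO C hbdd⟩

end Vale.Agent.Results.P007.A_maximal
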